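import Mathlib

/-!
# P171 helper: the labelled lower bound for a symmetric weight

For pairwise disjoint cells `C i` (`i : Fin N`) and a weight `W` on `Fin N → E` that is
invariant under relabelling, the integral of `W` over all configurations is at least `N!`
times the integral of `W` over the configurations with `x i ∈ C i` for every `i`.

Used for the trial minorant of the pressure (one particle in each cell).
-/

open MeasureTheory Set

open scoped ENNReal Nat

namespace Vale.Agent.H42.P171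

variable {E : Type*} [MeasurableSpace E]

/-- A finite sum of lower integrals is at most the lower integral of the sum
(no measurability needed). -/
lemma sum_lintegral_le {α ι : Type*} [MeasurableSpace α] (μ : Measure α) (s : Finset ι)
    (f : ι → α → ℝ≥0∞) :
    ∑ i ∈ s, ∫⁻ a, f i a ∂μ ≤ ∫⁻ a, ∑ i ∈ s, f i a ∂μ := by
  classical
  induction s using Finset.induction_on with
  | empty => simp
  | insert i s hi ih =>
    simp only [Finset.sum_insert hi]
    calc ∫⁻ a, f i a ∂μ + ∑ j ∈ s, ∫⁻ a, f j a ∂μ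
        ≤ ∫⁻ a, f i a ∂μ + ∫⁻ a, ∑ j ∈ s, f j a ∂μ := by gcongr
      _ ≤ ∫⁻ a, (f i a + ∑ j ∈ s, f j a) ∂μ := le_lintegral_add _ _

omit [MeasurableSpace E] in
/-- For pairwise disjoint cells, at most one relabelling matches a configuration. -/
lemma sum_perm_indicator_le_one (N : ℕ) (C : Fin N → Set E)
    (hC : Pairwise (Function.onFun Disjoint C)) (x : Fin N → E) :
    ∑ s : Equiv.Perm (Fin N), ∏ i, (C (s i)).indicator (1 : E → ℝ≥0∞) (x i) ≤ 1 := by
  classical
  by_cases h : ∃ s₀ : Equiv.Perm (Fin N), ∀ i, x i ∈ C (s₀ i)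
  · obtain ⟨s₀, hs₀⟩ := h
    rw [Finset.sum_eq_single s₀]
    · refine Finset.prod_le_one' fun i _ => ?_
      by_cases hx : x i ∈ C (s₀ i) <;> simp [hx]
    · intro s _ hs
      have : ∃ i, s i ≠ s₀ i := by
        by_contra hcon
        push Not at hcon
        exact hs (Equiv.ext hcon)
      obtain ⟨i, hi⟩ := this
      refine Finset.prod_eq_zero (Finset.mem_univ i) ?_
      have hdis : Disjoint (C (s i)) (C (s₀ i)) := hC hi
      have : x i ∉ C (s i) := fun hmem => (Set.disjoint_left.mp hdis hmem) (hs₀ i)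
      simp [this]
    · intro hnot
      exact absurd (Finset.mem_univ s₀) hnot
  · push Not at h
    have : ∀ s : Equiv.Perm (Fin N), ∏ i, (C (s i)).indicator (1 : E → ℝ≥0∞) (x i) = 0 := by
      intro s
      obtain ⟨i, hi⟩ := h s
      refine Finset.prod_eq_zero (Finset.mem_univ i) ?_
      simp [hi]
    simp [this]

/-- **Labelled lower bound.** -/
theorem labelled_lower (ν : Measure E) [SigmaFinite ν] (N : ℕ)
    (W : (Fin N → E) → ℝ≥0∞)
    (hW : ∀ (s : Equiv.Perm (Fin N)) (x : Fin N → E), W (x ∘ s) = W x)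
    (C : Fin N → Set E) (hC : Pairwise (Function.onFun Disjoint C)) :
    (N ! : ℝ≥0∞) * ∫⁻ x, W x * ∏ i, (C i).indicator (1 : E → ℝ≥0∞) (x i)
        ∂(Measure.pi fun _ : Fin N => ν)
      ≤ ∫⁻ x, W x ∂(Measure.pi fun _ : Fin N => ν) := by
  classical
  set μ := Measure.pi fun _ : Fin N => ν with hμ
  have key : ∀ s : Equiv.Perm (Fin N),
      ∫⁻ x, W x * ∏ i, (C (s i)).indicator (1 : E → ℝ≥0∞) (x i) ∂μ
        = ∫⁻ x, W x * ∏ i, (C i).indicator (1 : E → ℝ≥0∞) (x i) ∂μ := by
    intro s
    have hmp : MeasurePreserving (MeasurableEquiv.piCongrLeft (fun _ : Fin N => E) s) μ μ :=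
      measurePreserving_piCongrLeft (fun _ : Fin N => ν) s
    rw [← hmp.lintegral_comp_emb (MeasurableEquiv.measurableEmbedding _)
      (fun y => W y * ∏ i, (C i).indicator (1 : E → ℝ≥0∞) (y i))]
    refine lintegral_congr fun x => ?_
    have hg : ∀ i, MeasurableEquiv.piCongrLeft (fun _ : Fin N => E) s x (s i) = x i :=
      fun i => MeasurableEquiv.piCongrLeft_apply_apply (β := fun _ : Fin N => E) s x i
    have hcomp : (MeasurableEquiv.piCongrLeft (fun _ : Fin N => E) s x) ∘ s = x := funext hg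
    have h1 : W (MeasurableEquiv.piCongrLeft (fun _ : Fin N => E) s x) = W x := by
      rw [← hW s, hcomp]
    have h2 : ∏ i, (C i).indicator (1 : E → ℝ≥0∞)
          (MeasurableEquiv.piCongrLeft (fun _ : Fin N => E) s x i)
        = ∏ i, (C (s i)).indicator (1 : E → ℝ≥0∞) (x i) := by
      rw [← Equiv.prod_comp s]
      simp [hg]
    rw [h1, h2]
  calc (N ! : ℝ≥0∞) * ∫⁻ x, W x * ∏ i, (C i).indicator (1 : E → ℝ≥0∞) (x i) ∂μ
      = ∑ _s : Equiv.Perm (Fin N),
          ∫⁻ x, W x * ∏ i, (C i).indicator (1 : E → ℝ≥0∞) (x i) ∂μ := by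
        simp [Finset.sum_const, Finset.card_univ, Fintype.card_perm]
    _ = ∑ s : Equiv.Perm (Fin N),
          ∫⁻ x, W x * ∏ i, (C (s i)).indicator (1 : E → ℝ≥0∞) (x i) ∂μ := by
        simp [key]
    _ ≤ ∫⁻ x, ∑ s : Equiv.Perm (Fin N),
          W x * ∏ i, (C (s i)).indicator (1 : E → ℝ≥0∞) (x i) ∂μ :=
        sum_lintegral_le μ _ _
    _ ≤ ∫⁻ x, W x ∂μ := by
        refine lintegral_mono fun x => ?_
        rw [← Finset.mul_sum]
        calc W x * ∑ s : Equiv.Perm (Fin N), ∏ i, (C (s i)).indicator (1 : E → ℝ≥0∞) (x i)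
            ≤ W x * 1 := by gcongr; exact sum_perm_indicator_le_one N C hC x
          _ = W x := mul_one _

/-- Labelled lower bound with a constant minorant of the weight on the labelled event. -/
theorem labelled_lower_const (ν : Measure E) [SigmaFinite ν] (N : ℕ)
    (W : (Fin N → E) → ℝ≥0∞)
    (hW : ∀ (s : Equiv.Perm (Fin N)) (x : Fin N → E), W (x ∘ s) = W x)
    (C : Fin N → Set E) (hC : Pairwise (Function.onFun Disjoint C))
    (hCm : ∀ i, MeasurableSet (C i)) (c : ℝ≥0∞)
    (hc : ∀ x : Fin N → E, (∀ i, x i ∈ C i) → c ≤ W x) :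
    (N ! : ℝ≥0∞) * c * ∏ i, ν (C i) ≤ ∫⁻ x, W x ∂(Measure.pi fun _ : Fin N => ν) := by
  classical
  refine le_trans ?_ (labelled_lower ν N W hW C hC)
  rw [mul_assoc]
  gcongr
  have hind : ∀ x : Fin N → E, ∏ i, (C i).indicator (1 : E → ℝ≥0∞) (x i)
      = (Set.pi Set.univ C).indicator (1 : (Fin N → E) → ℝ≥0∞) x := by
    intro x
    by_cases hx : x ∈ Set.pi Set.univ C
    · have : ∀ i, x i ∈ C i := fun i => hx i (Set.mem_univ i)
      simp [hx, this]
    · have : ∃ i, x i ∉ C i := by
        by_contra hcon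
        push Not at hcon
        exact hx fun i _ => hcon i
      obtain ⟨i, hi⟩ := this
      rw [Set.indicator_of_notMem hx]
      refine Finset.prod_eq_zero (Finset.mem_univ i) ?_
      simp [hi]
  have hpi : MeasurableSet (Set.pi Set.univ C) := MeasurableSet.univ_pi hCm
  calc c * ∏ i, ν (C i)
      = ∫⁻ x, c * (Set.pi Set.univ C).indicator (1 : (Fin N → E) → ℝ≥0∞) x
          ∂(Measure.pi fun _ : Fin N => ν) := by
        rw [lintegral_const_mul _ (measurable_one.indicator hpi), lintegral_indicator_one hpi,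
          Measure.pi_pi]
    _ ≤ ∫⁻ x, W x * ∏ i, (C i).indicator (1 : E → ℝ≥0∞) (x i)
          ∂(Measure.pi fun _ : Fin N => ν) := by
        refine lintegral_mono fun x => ?_
        rw [hind x]
        by_cases hx : x ∈ Set.pi Set.univ C
        · have : ∀ i, x i ∈ C i := fun i => hx i (Set.mem_univ i)
          simp only [Set.indicator_of_mem hx, Pi.one_apply, mul_one]
          exact hc x this
        · simp [Set.indicator_of_notMem hx]

end Vale.Agent.H42.P171
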