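import Mathlib
import Vale.Agent.H27.PoissonFact
import Vale.Agent.H4.P171.XiBridge
import Vale.Agent.H4.P171.LP2
import Vale.Agent.H72.P171.XiScale
import Vale.Agent.H79.LP.Cells
import Vale.Agent.H96.P171.Defs
import Vale.Agent.H96.P171.Meas.LMeasBw
import Vale.Agent.H96.P171.Bounds
import Vale.Agent.H96.P171.Fekete

/-!
# P171 moonshot, steps (H3)+(H4): assembly of the Lebowitz-Penrose claim (helper42)

Input: the pointwise inequality (H2) in the shape of the hypothesis `hpt` of `LP2` (helper4), for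
the pair factors of two admissible parameters `t`, `t2`, a cell side `l ≥ 1` and a real `γ`.
Output (`lp4_claim_gen`): `exp(l^3 Fp μ t) ≤ ∑_j exp(-γ j^2 + (l+1)^3 Fp (μ + 2 γ j) t2)`,
as an inequality between extended nonnegative reals (no summability is needed).
Route: bridge `Xi_eq_PF`, `LP2`, the `j`-trick `Xi_jtrick`, the cell `[0,l)^3` inside the cube of
side `l`, `logXi_le_Fp`, and the thermodynamic limit `tendsto_pressure` along `L = K l`.
`lp4_claim_s` is the same with `γ = s / l^3` in the spelling used by the endgames.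
-/

open MeasureTheory ENNReal
open scoped BigOperators

namespace Vale.Agent.H42.P171

open Vale.Agent.H96.P171
open Vale.Agent.H4.P171 (pairFactor oneBody Xi_eq_PF chiGrid LP2)

/-- The pair factor of a Borel function is measurable. -/
theorem lp4_measurable_pairFactor (g : ℝ → ℝ) (hg : Measurable g) :
    Measurable (Function.uncurry (pairFactor g)) := by
  have hd : Measurable (fun p : E3 × E3 => dist p.1 p.2) := continuous_dist.measurable
  exact ENNReal.measurable_ofReal.comp (Real.measurable_exp.comp (((hg.comp hd).neg).div_const 2))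

/-- The pair factor is translation invariant. -/
theorem lp4_pairFactor_translate (g : ℝ → ℝ) (h x y : E3) :
    pairFactor g (x + h) (y + h) = pairFactor g x y := by
  unfold pairFactor
  rw [dist_add_right]

/-- Per box: the partition function of the cube of side `K l` for `t` is bounded by a power of
the `j`-sum of partition functions of the cube of side `l` for `t2`. -/
theorem lp4_box_gen (t t2 : ℕ → ℝ) (h2 : Adm t2) (μ : ℝ) (l : ℕ) (hl : 0 < l) (γ : ℝ) (K : ℕ)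
    (hpt : ∀ (N : ℕ) (x : Fin N → E3), Function.Injective x →
      (∀ i, x i ∈ Vale.Agent.H79.LP.box ((K : ℝ) * (l : ℝ))) →
      (∏ i, ∏ j, if i = j then (1 : ℝ≥0∞) else pairFactor (Phi t) (x i) (x j)) ≤
        ∏ a : Fin 3 → Fin l, (ENNReal.ofReal (Real.exp γ) ^ N * ∏ i, ∏ j,
          if i = j then (1 : ℝ≥0∞) else
            chiGrid l (Vale.Agent.H79.LP.shift l a) (ENNReal.ofReal (Real.exp γ))
              (pairFactor (Phi t2)) (x i) (x j)) ^ (((l : ℝ) ^ 3)⁻¹)) :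
    Xi (box ((K : ℝ) * (l : ℝ))) μ t ≤
      (∑' j : ℕ, ENNReal.ofReal (Real.exp (-(γ * (j : ℝ) ^ 2))) *
        Xi (box (l : ℝ)) (μ + 2 * γ * j) t2) ^ ((K + 2) ^ 3) := by
  rw [Xi_eq_PF]
  have hLP2 := LP2 l K hl (ENNReal.ofReal (Real.exp μ)) (ENNReal.ofReal (Real.exp γ))
    (pairFactor (Phi t)) (pairFactor (Phi t2))
    (lp4_measurable_pairFactor _ (measurable_Phi _ h2))
    (fun h x y => lp4_pairFactor_translate _ h x y) hpt
  refine le_trans hLP2 ?_
  refine pow_le_pow_left' ?_ _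
  have hfun : ((Vale.Agent.H79.LP.cell l 0 0).indicator
        fun _ => ENNReal.ofReal (Real.exp μ) * ENNReal.ofReal (Real.exp γ))
      = fun p => ENNReal.ofReal (Real.exp μ) * ENNReal.ofReal (Real.exp γ) *
          (Vale.Agent.H79.LP.cell l 0 0).indicator 1 p := by
    funext p
    by_cases hp : p ∈ Vale.Agent.H79.LP.cell l 0 0
    · simp [hp]
    · simp [hp]
  rw [hfun]
  refine le_trans (Vale.Agent.H72.P171.Xi_jtrick volume (ENNReal.ofReal (Real.exp μ))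
    ENNReal.ofReal_ne_top γ _ _) ?_
  refine ENNReal.tsum_le_tsum (fun j => ?_)
  refine mul_le_mul' le_rfl ?_
  rw [Xi_eq_PF]
  refine Vale.Agent.H27.PF.Xi_mono volume (fun p => ?_) (fun p q => le_rfl)
  by_cases hp : p ∈ Vale.Agent.H79.LP.cell l 0 0
  · have hpb : p ∈ box (l : ℝ) := Vale.Agent.H79.LP.cell_zero_subset_box l hl hp
    unfold oneBody
    rw [Set.indicator_of_mem hp, Set.indicator_of_mem hpb, Pi.one_apply, mul_one,
      ← ENNReal.ofReal_mul (Real.exp_pos _).le, ← Real.exp_add]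
  · rw [Set.indicator_of_notMem hp, mul_zero]
    exact bot_le

/-- The partition function of the cube of integer side `l` is at most `exp((l+1)^3 Fp)`. -/
theorem lp4_Xi_le_exp (t : ℕ → ℝ) (h : Adm t) (m : ℝ) (l : ℕ) (hl : 0 < l) :
    Xi (box (l : ℝ)) m t ≤ ENNReal.ofReal (Real.exp (((l : ℝ) + 1) ^ 3 * Fp m t)) := by
  have hT : Xi (box (l : ℝ)) m t ≠ ⊤ := Xi_ne_top t h m l (Nat.cast_nonneg l)
  have h1 : 1 ≤ Xi (box (l : ℝ)) m t := one_le_Xi _ m t
  have hx1 : 1 ≤ (Xi (box (l : ℝ)) m t).toReal := by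
    have := ENNReal.toReal_mono hT h1
    simpa using this
  have hx0 : 0 < (Xi (box (l : ℝ)) m t).toReal := lt_of_lt_of_le one_pos hx1
  have hFp := logXi_le_Fp t h m (l - 1)
  have hc : (((l - 1 : ℕ) : ℝ)) = (l : ℝ) - 1 := by
    rw [Nat.cast_sub hl]
    simp
  rw [hc] at hFp
  have e1 : (l : ℝ) - 1 + 1 = (l : ℝ) := by ring
  have e2 : (l : ℝ) - 1 + 2 = (l : ℝ) + 1 := by ring
  rw [e1, e2] at hFp
  unfold logXi at hFp
  have h2 : (Xi (box (l : ℝ)) m t).toReal ≤ Real.exp (((l : ℝ) + 1) ^ 3 * Fp m t) := by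
    rw [← Real.exp_log hx0]
    exact Real.exp_le_exp.2 hFp
  calc Xi (box (l : ℝ)) m t = ENNReal.ofReal ((Xi (box (l : ℝ)) m t).toReal) :=
        (ENNReal.ofReal_toReal hT).symm
    _ ≤ _ := ENNReal.ofReal_le_ofReal h2

/-- The Lebowitz-Penrose claim, exponentiated, with an extended-real series: general form. -/
theorem lp4_claim_gen (t t2 : ℕ → ℝ) (h : Adm t) (h2 : Adm t2) (μ : ℝ) (l : ℕ) (hl : 0 < l)
    (γ : ℝ)
    (hpt : ∀ (K N : ℕ) (x : Fin N → E3), Function.Injective x →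
      (∀ i, x i ∈ Vale.Agent.H79.LP.box ((K : ℝ) * (l : ℝ))) →
      (∏ i, ∏ j, if i = j then (1 : ℝ≥0∞) else pairFactor (Phi t) (x i) (x j)) ≤
        ∏ a : Fin 3 → Fin l, (ENNReal.ofReal (Real.exp γ) ^ N * ∏ i, ∏ j,
          if i = j then (1 : ℝ≥0∞) else
            chiGrid l (Vale.Agent.H79.LP.shift l a) (ENNReal.ofReal (Real.exp γ))
              (pairFactor (Phi t2)) (x i) (x j)) ^ (((l : ℝ) ^ 3)⁻¹)) :
    ENNReal.ofReal (Real.exp ((l : ℝ) ^ 3 * Fp μ t)) ≤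
      ∑' j : ℕ, ENNReal.ofReal (Real.exp
        (-(γ * (j : ℝ) ^ 2) + ((l : ℝ) + 1) ^ 3 * Fp (μ + 2 * γ * j) t2)) := by
  have hlR : (0 : ℝ) < (l : ℝ) := by exact_mod_cast hl
  set S : ℝ≥0∞ := ∑' j : ℕ, ENNReal.ofReal (Real.exp (-(γ * (j : ℝ) ^ 2))) *
        Xi (box (l : ℝ)) (μ + 2 * γ * j) t2 with hS
  set S' : ℝ≥0∞ := ∑' j : ℕ, ENNReal.ofReal (Real.exp (-(γ * (j : ℝ) ^ 2)
          + ((l : ℝ) + 1) ^ 3 * Fp (μ + 2 * γ * j) t2)) with hS'
  have hSS' : S ≤ S' := by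
    refine ENNReal.tsum_le_tsum (fun j => ?_)
    rw [Real.exp_add, ENNReal.ofReal_mul (Real.exp_pos _).le]
    exact mul_le_mul' le_rfl (lp4_Xi_le_exp t2 h2 _ l hl)
  by_cases hS'top : S' = ⊤
  · rw [hS'top]
    exact le_top
  have hStop : S ≠ ⊤ := fun hh => hS'top (top_le_iff.1 (hh ▸ hSS'))
  have hS1 : 1 ≤ S := by
    have h0 : (1 : ℝ≥0∞) ≤ ENNReal.ofReal (Real.exp (-(γ * ((0 : ℕ) : ℝ) ^ 2))) *
        Xi (box (l : ℝ)) (μ + 2 * γ * ((0 : ℕ) : ℝ)) t2 := by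
      have e : ENNReal.ofReal (Real.exp (-(γ * ((0 : ℕ) : ℝ) ^ 2))) = 1 := by simp
      rw [e, one_mul]
      exact one_le_Xi _ _ _
    exact le_trans h0 (ENNReal.le_tsum 0)
  have hSr1 : 1 ≤ S.toReal := by
    have := ENNReal.toReal_mono hStop hS1
    simpa using this
  have hSr0 : 0 < S.toReal := lt_of_lt_of_le one_pos hSr1
  -- the bound for every box
  have hbox : ∀ K : ℕ, logXi ((K : ℝ) * (l : ℝ)) μ t
      ≤ ((K : ℝ) + 2) ^ 3 * Real.log S.toReal := by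
    intro K
    have hb := lp4_box_gen t t2 h2 μ l hl γ K (hpt K)
    rw [← hS] at hb
    have hpT : S ^ ((K + 2) ^ 3) ≠ ⊤ := ENNReal.pow_ne_top hStop
    have hX1 : 1 ≤ Xi (box ((K : ℝ) * (l : ℝ))) μ t := one_le_Xi _ _ _
    have hXT : Xi (box ((K : ℝ) * (l : ℝ))) μ t ≠ ⊤ :=
      fun hh => hpT (top_le_iff.1 (hh ▸ hb))
    have hXr1 : 1 ≤ (Xi (box ((K : ℝ) * (l : ℝ))) μ t).toReal := by
      have := ENNReal.toReal_mono hXT hX1
      simpa using this
    have hle := ENNReal.toReal_mono hpT hb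
    rw [ENNReal.toReal_pow] at hle
    unfold logXi
    have h3 := Real.log_le_log (lt_of_lt_of_le one_pos hXr1) hle
    rw [Real.log_pow] at h3
    have hc : (((K + 2) ^ 3 : ℕ) : ℝ) = ((K : ℝ) + 2) ^ 3 := by push_cast; ring
    rw [hc] at h3
    exact h3
  -- the limit along the cubes of side `K l`
  have hlim := tendsto_pressure t h μ
  have hK : Filter.Tendsto (fun K : ℕ => (K : ℝ) * (l : ℝ)) Filter.atTop Filter.atTop :=
    Filter.Tendsto.atTop_mul_const hlR tendsto_natCast_atTop_atTop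
  have hlim2 := hlim.comp hK
  have hrhs : Filter.Tendsto (fun K : ℕ => (1 + 2 / (K : ℝ)) ^ 3 *
      (Real.log S.toReal / (l : ℝ) ^ 3)) Filter.atTop
      (nhds ((1 + 0) ^ 3 * (Real.log S.toReal / (l : ℝ) ^ 3))) := by
    have h2 : Filter.Tendsto (fun K : ℕ => 2 / (K : ℝ)) Filter.atTop (nhds 0) :=
      tendsto_const_div_atTop_nhds_zero_nat 2
    exact ((h2.const_add 1).pow 3).mul_const _
  have hev : ∀ᶠ K : ℕ in Filter.atTop,
      ((fun L : ℝ => logXi L μ t / L ^ 3) ∘ fun K : ℕ => (K : ℝ) * (l : ℝ)) K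
        ≤ (1 + 2 / (K : ℝ)) ^ 3 * (Real.log S.toReal / (l : ℝ) ^ 3) := by
    filter_upwards [Filter.eventually_ge_atTop 1] with K hK1
    have hKR : (0 : ℝ) < (K : ℝ) := by exact_mod_cast hK1
    simp only [Function.comp_apply]
    rw [div_le_iff₀ (by positivity)]
    have e : (1 + 2 / (K : ℝ)) ^ 3 * (Real.log S.toReal / (l : ℝ) ^ 3) *
        ((K : ℝ) * (l : ℝ)) ^ 3 = ((K : ℝ) + 2) ^ 3 * Real.log S.toReal := by
      field_simp
    rw [e]
    exact hbox K
  have hfin := le_of_tendsto_of_tendsto hlim2 hrhs hev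
  have hfin2 : (l : ℝ) ^ 3 * Fp μ t ≤ Real.log S.toReal := by
    have e : (1 + 0 : ℝ) ^ 3 * (Real.log S.toReal / (l : ℝ) ^ 3)
        = Real.log S.toReal / (l : ℝ) ^ 3 := by ring
    rw [e, le_div_iff₀ (by positivity)] at hfin
    linarith
  have hexp : Real.exp ((l : ℝ) ^ 3 * Fp μ t) ≤ S.toReal := by
    rw [← Real.exp_log hSr0]
    exact Real.exp_le_exp.2 hfin2
  calc ENNReal.ofReal (Real.exp ((l : ℝ) ^ 3 * Fp μ t))
      ≤ ENNReal.ofReal S.toReal := ENNReal.ofReal_le_ofReal hexp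
    _ = S := ENNReal.ofReal_toReal hStop
    _ ≤ S' := hSS'

/-- The claim with `γ = s / l^3`, in the spelling of the exponent used by the endgames. -/
theorem lp4_claim_s (t t2 : ℕ → ℝ) (h : Adm t) (h2 : Adm t2) (μ : ℝ) (l : ℕ) (hl : 0 < l)
    (s : ℝ)
    (hpt : ∀ (K N : ℕ) (x : Fin N → E3), Function.Injective x →
      (∀ i, x i ∈ Vale.Agent.H79.LP.box ((K : ℝ) * (l : ℝ))) →
      (∏ i, ∏ j, if i = j then (1 : ℝ≥0∞) else pairFactor (Phi t) (x i) (x j)) ≤
        ∏ a : Fin 3 → Fin l, (ENNReal.ofReal (Real.exp (s / (l : ℝ) ^ 3)) ^ N * ∏ i, ∏ j,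
          if i = j then (1 : ℝ≥0∞) else
            chiGrid l (Vale.Agent.H79.LP.shift l a) (ENNReal.ofReal (Real.exp (s / (l : ℝ) ^ 3)))
              (pairFactor (Phi t2)) (x i) (x j)) ^ (((l : ℝ) ^ 3)⁻¹)) :
    ENNReal.ofReal (Real.exp ((l : ℝ) ^ 3 * Fp μ t)) ≤
      ∑' j : ℕ, ENNReal.ofReal (Real.exp
        (-s * (j : ℝ) ^ 2 / (l : ℝ) ^ 3
          + ((l : ℝ) + 1) ^ 3 * Fp (μ + 2 * s * (j : ℝ) / (l : ℝ) ^ 3) t2)) := by
  have hmain := lp4_claim_gen t t2 h h2 μ l hl (s / (l : ℝ) ^ 3) hpt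
  refine le_trans hmain (le_of_eq ?_)
  refine tsum_congr (fun j => ?_)
  have e1 : -(s / (l : ℝ) ^ 3 * (j : ℝ) ^ 2) = -s * (j : ℝ) ^ 2 / (l : ℝ) ^ 3 := by ring
  have e2 : μ + 2 * (s / (l : ℝ) ^ 3) * (j : ℝ) = μ + 2 * s * (j : ℝ) / (l : ℝ) ^ 3 := by ring
  rw [e1, e2]

end Vale.Agent.H42.P171
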